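import Mathlib

/-!
# Genericity for a polynomial family of operators (P199, board row 151, task GEN)

If the operator `Z s = ∑ t, eval s (q t) • B t` has `v, Z v, …, Z^(m-1) v` linearly independent
at one parameter `s₀`, then the same holds at a parameter with all coordinates in a prescribed
infinite set.
-/

namespace Vale.Agent.H97

open MvPolynomial

/-- coordinates of the orbit `(Z s)^b v` are polynomial functions of the parameter `s` -/
theorem exists_poly_of_functional {K V σ τ : Type*} [Field K] [AddCommGroup V] [Module K V]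
    [Fintype τ] (q : τ → MvPolynomial σ K) (B : τ → Module.End K V) (v : V) (b : ℕ) :
    ∀ f : V →ₗ[K] K, ∃ P : MvPolynomial σ K, ∀ s : σ → K,
      f (((∑ t, MvPolynomial.eval s (q t) • B t) ^ b) v) = MvPolynomial.eval s P := by
  induction b with
  | zero =>
    intro f
    exact ⟨C (f v), fun s => by simp⟩
  | succ b ih =>
    intro f
    choose P hP using fun t => ih (f ∘ₗ B t)
    refine ⟨∑ t, q t * P t, fun s => ?_⟩
    rw [pow_succ', Module.End.mul_apply, LinearMap.sum_apply, map_sum, map_sum]
    apply Finset.sum_congr rfl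
    intro t _
    rw [LinearMap.smul_apply, map_smul, smul_eq_mul, map_mul, ← hP t s]
    rfl

/-- dual functionals of a finite linearly independent family -/
theorem exists_dual_family {K V : Type*} [Field K] [AddCommGroup V] [Module K V] {m : ℕ}
    (x : Fin m → V) (hx : LinearIndependent K x) :
    ∃ f : Fin m → (V →ₗ[K] K), ∀ a b, f a (x b) = if a = b then 1 else 0 := by
  have key : ∀ a : Fin m, ∃ g : V →ₗ[K] K, ∀ b, g (x b) = if a = b then 1 else 0 := by
    intro a
    obtain ⟨g, hg⟩ := LinearMap.exists_extend ((Finsupp.lapply a).comp hx.repr)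
    refine ⟨g, fun b => ?_⟩
    have hb : x b ∈ Submodule.span K (Set.range x) :=
      Submodule.subset_span (Set.mem_range_self b)
    have h1 := congrArg (fun h => h ⟨x b, hb⟩) hg
    simp only [LinearMap.comp_apply, Submodule.subtype_apply] at h1
    rw [h1]
    have h2 := hx.repr_eq_single b ⟨x b, hb⟩ rfl
    simp only [Finsupp.lapply_apply]
    rw [h2, Finsupp.single_apply]
    simp [eq_comm]
  choose f hf using key
  exact ⟨f, hf⟩

/-- **(GEN)** Genericity: a polynomial family of operators with a cyclic vector of length `m` at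
one point has one at a point with coordinates in any infinite set. -/
theorem exists_generic_cyclic {K V σ τ : Type*} [Field K] [AddCommGroup V] [Module K V]
    [Fintype τ] (q : τ → MvPolynomial σ K) (B : τ → Module.End K V) (v : V) (m : ℕ)
    (S : Set K) (hS : S.Infinite) (s₀ : σ → K)
    (h₀ : LinearIndependent K
      (fun b : Fin m => ((∑ t, MvPolynomial.eval s₀ (q t) • B t) ^ (b : ℕ)) v)) :
    ∃ s : σ → K, (∀ i, s i ∈ S) ∧ LinearIndependent K
      (fun b : Fin m => ((∑ t, MvPolynomial.eval s (q t) • B t) ^ (b : ℕ)) v) := by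
  obtain ⟨f, hf⟩ := exists_dual_family _ h₀
  choose P hP using fun (a : Fin m) (b : Fin m) =>
    exists_poly_of_functional q B v (b : ℕ) (f a)
  set g : MvPolynomial σ K := Matrix.det (Matrix.of P) with hg
  have heval : ∀ s, eval s g = Matrix.det
      (Matrix.of fun a b : Fin m => f a (((∑ t, eval s (q t) • B t) ^ (b : ℕ)) v)) := by
    intro s
    rw [hg, RingHom.map_det]
    congr 1
    ext a b
    simp [hP a b s]
  have hg0 : eval s₀ g = 1 := by
    rw [heval]
    have : (Matrix.of fun a b : Fin m => f a (((∑ t, eval s₀ (q t) • B t) ^ (b : ℕ)) v))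
        = (1 : Matrix (Fin m) (Fin m) K) := by
      ext a b
      simp [hf a b, Matrix.one_apply]
    rw [this, Matrix.det_one]
  have hgne : g ≠ 0 := by
    intro h
    rw [h, map_zero] at hg0
    exact zero_ne_one hg0
  have hex : ∃ s : σ → K, (∀ i, s i ∈ S) ∧ eval s g ≠ 0 := by
    by_contra hcon
    push Not at hcon
    apply hgne
    apply MvPolynomial.funext_set (fun _ => S) (fun _ => hS)
    intro x hx
    rw [map_zero]
    exact hcon x (fun i => hx i (Set.mem_univ i))
  obtain ⟨s, hsS, hsne⟩ := hex
  refine ⟨s, hsS, ?_⟩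
  rw [Fintype.linearIndependent_iff]
  intro c hc
  have hmul : (Matrix.of fun a b : Fin m =>
      f a (((∑ t, eval s (q t) • B t) ^ (b : ℕ)) v)).mulVec c = 0 := by
    ext a
    have h1 := congrArg (f a) hc
    rw [map_sum, map_zero] at h1
    simp only [Matrix.mulVec, dotProduct, Matrix.of_apply, Pi.zero_apply]
    rw [← h1]
    apply Finset.sum_congr rfl
    intro b _
    rw [map_smul, smul_eq_mul, mul_comm]
  have hc0 := Matrix.eq_zero_of_mulVec_eq_zero (by rw [← heval]; exact hsne) hmul
  intro i
  exact congrFun hc0 i

end Vale.Agent.H97
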